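import Mathlib

/-!
# P107: a barrier argument for the Vlasov equation

The momentum support of a solution of the relativistic Vlasov equation with Lorentz force
`E + u(v) × B` is controlled by the time integral of the power `u(v) · E` on the support of `f`.
The proof is a maximum principle along the backward characteristic direction; no characteristic
curve has to be constructed.
-/

open Matrix Set Filter Topology

namespace Vale.Agent.Lib.P107

/-- the particle energy `q(v) = sqrt (1 + |v|^2)` -/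
noncomputable def en (v : Fin 3 → ℝ) : ℝ := Real.sqrt (1 + v ⬝ᵥ v)

/-- the relativistic velocity `u(v) = v / q(v)` -/
noncomputable def vel (v : Fin 3 → ℝ) : Fin 3 → ℝ := (en v)⁻¹ • v

lemma dot_self_nonneg (v : Fin 3 → ℝ) : 0 ≤ v ⬝ᵥ v :=
  Finset.sum_nonneg (fun i _ => mul_self_nonneg (v i))

lemma en_pos (v : Fin 3 → ℝ) : 0 < en v :=
  Real.sqrt_pos.2 (by have := dot_self_nonneg v; linarith)

lemma continuous_en : Continuous en := by
  unfold en dotProduct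
  fun_prop

lemma hasDerivAt_en_line (v k : Fin 3 → ℝ) :
    HasDerivAt (fun s : ℝ => en (v + s • k)) (vel v ⬝ᵥ k) 0 := by
  have h1 : ∀ s : ℝ, 1 + (v + s • k) ⬝ᵥ (v + s • k)
      = 1 + v ⬝ᵥ v + 2 * s * (v ⬝ᵥ k) + s ^ 2 * (k ⬝ᵥ k) := by
    intro s
    simp only [add_dotProduct, dotProduct_add, smul_dotProduct, dotProduct_smul, smul_eq_mul,
      dotProduct_comm k v]
    ring
  have h2 : HasDerivAt (fun s : ℝ => 1 + v ⬝ᵥ v + 2 * s * (v ⬝ᵥ k) + s ^ 2 * (k ⬝ᵥ k))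
      (2 * (v ⬝ᵥ k)) 0 := by
    have a := (((hasDerivAt_id' (0 : ℝ)).const_mul 2).mul_const (v ⬝ᵥ k)).const_add (1 + v ⬝ᵥ v)
    have b := (hasDerivAt_pow 2 (0 : ℝ)).mul_const (k ⬝ᵥ k)
    have c : HasDerivAt (fun s : ℝ => 1 + v ⬝ᵥ v + 2 * s * (v ⬝ᵥ k) + s ^ 2 * (k ⬝ᵥ k))
        (2 * 1 * (v ⬝ᵥ k) + ((2 : ℕ) : ℝ) * 0 ^ (2 - 1) * (k ⬝ᵥ k)) 0 := a.add b
    exact c.congr_deriv (by simp)
  have h3 : HasDerivAt (fun s : ℝ => 1 + (v + s • k) ⬝ᵥ (v + s • k)) (2 * (v ⬝ᵥ k)) 0 := by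
    have : (fun s : ℝ => 1 + (v + s • k) ⬝ᵥ (v + s • k))
        = fun s : ℝ => 1 + v ⬝ᵥ v + 2 * s * (v ⬝ᵥ k) + s ^ 2 * (k ⬝ᵥ k) := funext h1
    rw [this]
    exact h2
  have h4 := h3.sqrt (by
    have := dot_self_nonneg v
    simp only [zero_smul, add_zero]
    linarith)
  have h5 : 2 * (v ⬝ᵥ k) / (2 * Real.sqrt (1 + (v + (0 : ℝ) • k) ⬝ᵥ (v + (0 : ℝ) • k)))
      = vel v ⬝ᵥ k := by
    simp only [zero_smul, add_zero, vel, smul_dotProduct, smul_eq_mul]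
    have hp := en_pos v
    unfold en at hp ⊢
    field_simp
  rw [h5] at h4
  exact h4

lemma eventually_gt_of_deriv_pos {φ : ℝ → ℝ} {c : ℝ} (h : HasDerivAt φ c 0) (hc : 0 < c) :
    ∀ᶠ s in 𝓝[>] (0 : ℝ), φ 0 < φ s := by
  have h1 := hasDerivAt_iff_tendsto_slope.1 h
  have h2 : ∀ᶠ s in 𝓝[≠] (0 : ℝ), 0 < slope φ 0 s := h1.eventually (Ioi_mem_nhds hc)
  have h3 : ∀ᶠ s in 𝓝[>] (0 : ℝ), 0 < slope φ 0 s :=
    h2.filter_mono (nhdsWithin_mono _ (fun x hx => ne_of_gt hx))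
  filter_upwards [h3, self_mem_nhdsWithin] with s hs hpos
  rw [slope_def_field, sub_zero] at hs
  have hs0 : (0 : ℝ) < s := hpos
  have := (div_pos_iff_of_pos_right hs0).1 hs
  linarith

lemma vel_dot_force (v a b : Fin 3 → ℝ) : vel v ⬝ᵥ (a + vel v ⨯₃ b) = vel v ⬝ᵥ a := by
  rw [dotProduct_add, dot_self_cross, add_zero]

lemma vel_dot_le (v a : Fin 3 → ℝ) : vel v ⬝ᵥ a ≤ Real.sqrt (a ⬝ᵥ a) := by
  have h1 : (vel v ⬝ᵥ a) ^ 2 ≤ (vel v ⬝ᵥ vel v) * (a ⬝ᵥ a) := by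
    have := Finset.sum_mul_sq_le_sq_mul_sq Finset.univ (vel v) a
    simpa [dotProduct, sq] using this
  have h2 : vel v ⬝ᵥ vel v ≤ 1 := by
    have hp := en_pos v
    have hsq : en v ^ 2 = 1 + v ⬝ᵥ v := by
      unfold en
      exact Real.sq_sqrt (by have := dot_self_nonneg v; linarith)
    simp only [vel, smul_dotProduct, dotProduct_smul, smul_eq_mul]
    have h0 := dot_self_nonneg v
    have : (en v)⁻¹ * ((en v)⁻¹ * (v ⬝ᵥ v)) = (v ⬝ᵥ v) / en v ^ 2 := by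
      field_simp
    rw [this, hsq, div_le_one (by linarith)]
    linarith
  have h3 : (vel v ⬝ᵥ a) ^ 2 ≤ a ⬝ᵥ a := by
    have h0 := dot_self_nonneg a
    nlinarith
  exact (le_abs_self _).trans (Real.abs_le_sqrt h3)

/-- The barrier argument: above a moving energy level `A t` whose speed exceeds the power
`u(v) · E` at the particles sitting exactly at that level, a solution `g` of the transport equation
which vanishes initially above the level is at most `ε t`. -/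
lemma barrier (T : ℝ) (g : ℝ × (Fin 3 → ℝ) × (Fin 3 → ℝ) → ℝ)
    (E B : ℝ × (Fin 3 → ℝ) → Fin 3 → ℝ)
    (hcont : ContinuousOn g (Ico 0 T ×ˢ univ))
    (hdiff : ∀ t x v, 0 < t → t < T → DifferentiableAt ℝ g (t, x, v))
    (htr : ∀ t x v, 0 < t → t < T →
      fderiv ℝ g (t, x, v) (1, vel v, E (t, x) + vel v ⨯₃ B (t, x)) = 0)
    (hsupp : ∀ t₁, t₁ < T → ∃ C : Set ((Fin 3 → ℝ) × (Fin 3 → ℝ)), IsCompact C ∧
      ∀ t x v, 0 ≤ t → t ≤ t₁ → g (t, x, v) ≠ 0 → (x, v) ∈ C)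
    (A A' : ℝ → ℝ) (hA : ∀ t, HasDerivAt A (A' t) t)
    (h0 : ∀ x v, g (0, x, v) ≠ 0 → en v < A 0)
    (hfront : ∀ t x v, 0 < t → t < T → g (t, x, v) ≠ 0 → en v = A t →
      vel v ⬝ᵥ E (t, x) < A' t)
    (t₁ : ℝ) (ht₁ : t₁ < T) (ε : ℝ) (hε : 0 < ε) :
    ∀ t x v, 0 ≤ t → t ≤ t₁ → A t ≤ en v → g (t, x, v) ≤ ε * t := by
  by_contra hcon
  push Not at hcon
  obtain ⟨t0, x0, v0, ht0, ht01, hA0, hg0⟩ := hcon
  obtain ⟨C, hC, hCs⟩ := hsupp t₁ ht₁
  have hAc : Continuous A := continuous_iff_continuousAt.2 (fun t => (hA t).continuousAt)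
  set K : Set (ℝ × (Fin 3 → ℝ) × (Fin 3 → ℝ)) := (Icc 0 t₁ ×ˢ C) ∩ {p | A p.1 ≤ en p.2.2} with hKdef
  have hK : IsCompact K := (isCompact_Icc.prod hC).inter_right
    (isClosed_le (hAc.comp continuous_fst) (continuous_en.comp (continuous_snd.comp continuous_snd)))
  set G : ℝ × (Fin 3 → ℝ) × (Fin 3 → ℝ) → ℝ := fun p => g p - ε * p.1 with hGdef
  have hKsub : K ⊆ Ico 0 T ×ˢ univ := by
    rintro ⟨t, x, v⟩ ⟨⟨⟨h1, h2⟩, -⟩, -⟩
    exact ⟨⟨h1, lt_of_le_of_lt h2 ht₁⟩, mem_univ _⟩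
  have hGc : ContinuousOn G K :=
    (hcont.mono hKsub).sub (continuous_const.mul continuous_fst).continuousOn
  have hmemK : ∀ t x v, 0 ≤ t → t ≤ t₁ → A t ≤ en v → 0 < G (t, x, v) → (t, x, v) ∈ K := by
    intro t x v h1 h2 h3 h4
    have h5 : 0 < g (t, x, v) := by
      have : 0 ≤ ε * t := mul_nonneg hε.le h1
      simp only [hGdef] at h4
      linarith
    exact ⟨⟨⟨h1, h2⟩, hCs t x v h1 h2 h5.ne'⟩, h3⟩
  have hG0 : 0 < G (t0, x0, v0) := by
    simp only [hGdef]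
    linarith
  have hp0 : (t0, x0, v0) ∈ K := hmemK t0 x0 v0 ht0 ht01 hA0 hG0
  obtain ⟨⟨t, x, v⟩, hpK, hpmax⟩ := hK.exists_isMaxOn ⟨_, hp0⟩ hGc
  have hmax : ∀ y ∈ K, G y ≤ G (t, x, v) := fun y hy => hpmax hy
  have hGp : 0 < G (t, x, v) := lt_of_lt_of_le hG0 (hmax _ hp0)
  obtain ⟨⟨⟨htn, htt⟩, -⟩, hAt⟩ := hpK
  simp only [mem_ofPred_eq] at hAt htn htt
  have hgp : 0 < g (t, x, v) := by
    have : 0 ≤ ε * t := mul_nonneg hε.le htn
    simp only [hGdef] at hGp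
    linarith
  have htpos : 0 < t := by
    rcases htn.eq_or_lt with h | h
    · exfalso
      subst h
      have h1 := h0 x v hgp.ne'
      linarith
    · exact h
  have htT : t < T := lt_of_le_of_lt htt ht₁
  set k : Fin 3 → ℝ := E (t, x) + vel v ⨯₃ B (t, x) with hk
  -- the backward characteristic direction
  have hγ : HasDerivAt (fun s : ℝ => ((t - s, x + s • (-vel v), v + s • (-k)) :
      ℝ × (Fin 3 → ℝ) × (Fin 3 → ℝ))) (-1, -vel v, -k) 0 := by
    have a1 : HasDerivAt (fun s : ℝ => t - s) (-1) 0 := by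
      simpa using (hasDerivAt_id' (0 : ℝ)).const_sub t
    have a2 : HasDerivAt (fun s : ℝ => x + s • (-vel v)) (-vel v) 0 := by
      simpa using ((hasDerivAt_id' (0 : ℝ)).smul_const (-vel v)).const_add x
    have a3 : HasDerivAt (fun s : ℝ => v + s • (-k)) (-k) 0 := by
      simpa using ((hasDerivAt_id' (0 : ℝ)).smul_const (-k)).const_add v
    exact a1.prodMk (a2.prodMk a3)
  have hg' : HasDerivAt (fun s : ℝ => g (t - s, x + s • (-vel v), v + s • (-k))) 0 0 := by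
    have h := (hdiff t x v htpos htT).hasFDerivAt
    have h0 : ((t - (0 : ℝ), x + (0 : ℝ) • (-vel v), v + (0 : ℝ) • (-k)) :
        ℝ × (Fin 3 → ℝ) × (Fin 3 → ℝ)) = (t, x, v) := by simp
    have h1 : HasFDerivAt g (fderiv ℝ g (t, x, v))
        ((t - (0 : ℝ), x + (0 : ℝ) • (-vel v), v + (0 : ℝ) • (-k)) :
          ℝ × (Fin 3 → ℝ) × (Fin 3 → ℝ)) := by rw [h0]; exact h
    have h2 := h1.comp_hasDerivAt (0 : ℝ) hγ
    have h3 : fderiv ℝ g (t, x, v) (-1, -vel v, -k) = 0 := by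
      have : ((-1, -vel v, -k) : ℝ × (Fin 3 → ℝ) × (Fin 3 → ℝ)) = -(1, vel v, k) := by
        simp
      rw [this, map_neg, htr t x v htpos htT, neg_zero]
    rw [h3] at h2
    exact h2
  have hG' : HasDerivAt (fun s : ℝ => G (t - s, x + s • (-vel v), v + s • (-k))) ε 0 := by
    have a1 : HasDerivAt (fun s : ℝ => ε * (t - s)) (ε * (-1)) 0 := by
      have := ((hasDerivAt_id' (0 : ℝ)).const_sub t).const_mul ε
      simpa using this
    have h : HasDerivAt (fun s : ℝ => g (t - s, x + s • (-vel v), v + s • (-k)) - ε * (t - s))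
        (0 - ε * (-1)) 0 := hg'.sub a1
    exact h.congr_deriv (by ring)
  have hφ' : HasDerivAt (fun s : ℝ => en (v + s • (-k)) - A (t - s))
      (vel v ⬝ᵥ (-k) + A' t) 0 := by
    have a1 := hasDerivAt_en_line v (-k)
    have a2 : HasDerivAt (fun s : ℝ => A (t - s)) (-(A' t)) 0 := by
      have h1 : HasDerivAt A (A' t) (t - 0) := by simpa using hA t
      have h2 : HasDerivAt (fun s : ℝ => t - s) (-1) 0 := by
        simpa using (hasDerivAt_id' (0 : ℝ)).const_sub t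
      have h3 : HasDerivAt (fun s : ℝ => A (t - s)) (A' t * (-1)) 0 := h1.comp (0 : ℝ) h2
      exact h3.congr_deriv (by ring)
    have h : HasDerivAt (fun s : ℝ => en (v + s • (-k)) - A (t - s))
        (vel v ⬝ᵥ (-k) - (-(A' t))) 0 := a1.sub a2
    exact h.congr_deriv (by ring)
  have ev1 := eventually_gt_of_deriv_pos hG' hε
  have ev2 : ∀ᶠ s in 𝓝[>] (0 : ℝ), 0 < en (v + s • (-k)) - A (t - s) := by
    rcases hAt.eq_or_lt with heq | hlt
    · have hφpos : 0 < vel v ⬝ᵥ (-k) + A' t := by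
        have h1 : vel v ⬝ᵥ k = vel v ⬝ᵥ E (t, x) := vel_dot_force v _ _
        have h2 := hfront t x v htpos htT hgp.ne' heq.symm
        rw [dotProduct_neg, h1]
        linarith
      have h3 := eventually_gt_of_deriv_pos hφ' hφpos
      filter_upwards [h3] with s hs
      simp only [sub_zero, zero_smul, add_zero] at hs
      linarith
    · have hc := hφ'.continuousAt
      have h1 : (0 : ℝ) < en (v + (0 : ℝ) • (-k)) - A (t - 0) := by
        simp only [sub_zero, zero_smul, add_zero]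
        linarith
      have h2 : ∀ᶠ s in 𝓝 (0 : ℝ), 0 < en (v + s • (-k)) - A (t - s) :=
        hc.eventually (Ioi_mem_nhds h1)
      exact h2.filter_mono nhdsWithin_le_nhds
  have ev3 : ∀ᶠ s in 𝓝[>] (0 : ℝ), s ∈ Ioo 0 t := Ioo_mem_nhdsGT htpos
  obtain ⟨s, hs1, hs2, hs3⟩ := (ev1.and (ev2.and ev3)).exists
  simp only [sub_zero, zero_smul, add_zero] at hs1
  have hAs : A (t - s) ≤ en (v + s • (-k)) := by linarith
  have hmem := hmemK (t - s) (x + s • (-vel v)) (v + s • (-k)) (by linarith [hs3.2])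
    (by linarith [hs3.1]) hAs (lt_trans hGp hs1)
  have := hmax _ hmem
  linarith

/-- Comparison principle for the momentum support. -/
theorem frontier (T : ℝ) (f : ℝ × (Fin 3 → ℝ) × (Fin 3 → ℝ) → ℝ)
    (E B : ℝ × (Fin 3 → ℝ) → Fin 3 → ℝ)
    (hcont : ContinuousOn f (Ico 0 T ×ˢ univ))
    (hdiff : ∀ t x v, 0 < t → t < T → DifferentiableAt ℝ f (t, x, v))
    (htr : ∀ t x v, 0 < t → t < T →
      fderiv ℝ f (t, x, v) (1, vel v, E (t, x) + vel v ⨯₃ B (t, x)) = 0)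
    (hsupp : ∀ t₁, t₁ < T → ∃ C : Set ((Fin 3 → ℝ) × (Fin 3 → ℝ)), IsCompact C ∧
      ∀ t x v, 0 ≤ t → t ≤ t₁ → f (t, x, v) ≠ 0 → (x, v) ∈ C)
    (A A' : ℝ → ℝ) (hA : ∀ t, HasDerivAt A (A' t) t)
    (h0 : ∀ x v, f (0, x, v) ≠ 0 → en v < A 0)
    (hfront : ∀ t x v, 0 < t → t < T → f (t, x, v) ≠ 0 → en v = A t →
      vel v ⬝ᵥ E (t, x) < A' t) :
    ∀ t x v, 0 ≤ t → t < T → f (t, x, v) ≠ 0 → en v < A t := by
  intro t x v ht htT hf
  by_contra hcon
  push Not at hcon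
  have hup : ∀ ε : ℝ, 0 < ε → f (t, x, v) ≤ ε * t := fun ε hε =>
    barrier T f E B hcont hdiff htr hsupp A A' hA h0 hfront t htT ε hε t x v ht le_rfl hcon
  have hdown : ∀ ε : ℝ, 0 < ε → -f (t, x, v) ≤ ε * t := fun ε hε =>
    barrier T (fun p => -f p) E B hcont.neg (fun t x v h1 h2 => (hdiff t x v h1 h2).neg)
      (fun t x v h1 h2 => by
        rw [fderiv_fun_neg, _root_.neg_apply, htr t x v h1 h2, neg_zero])
      (by simpa only [ne_eq, neg_eq_zero] using hsupp) A A' hA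
      (by simpa only [ne_eq, neg_eq_zero] using h0)
      (by simpa only [ne_eq, neg_eq_zero] using hfront) t htT ε hε t x v ht le_rfl hcon
  have habs : ∀ ε : ℝ, 0 < ε → |f (t, x, v)| ≤ ε * t := fun ε hε =>
    abs_le.2 ⟨by linarith [hdown ε hε], hup ε hε⟩
  have hpos : 0 < |f (t, x, v)| := abs_pos.2 hf
  have h1t : (0 : ℝ) < 1 + t := by linarith
  have h1 := habs (|f (t, x, v)| / (1 + t)) (div_pos hpos h1t)
  have h2 : |f (t, x, v)| / (1 + t) * t < |f (t, x, v)| := by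
    rw [div_mul_eq_mul_div, div_lt_iff₀ h1t]
    nlinarith
  linarith

/-- The momentum support is controlled by the time integral of the power on the support. -/
theorem support_bound (T : ℝ) (f : ℝ × (Fin 3 → ℝ) × (Fin 3 → ℝ) → ℝ)
    (E B : ℝ × (Fin 3 → ℝ) → Fin 3 → ℝ)
    (hcont : ContinuousOn f (Ico 0 T ×ˢ univ))
    (hdiff : ∀ t x v, 0 < t → t < T → DifferentiableAt ℝ f (t, x, v))
    (htr : ∀ t x v, 0 < t → t < T →
      fderiv ℝ f (t, x, v) (1, vel v, E (t, x) + vel v ⨯₃ B (t, x)) = 0)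
    (hsupp : ∀ t₁, t₁ < T → ∃ C : Set ((Fin 3 → ℝ) × (Fin 3 → ℝ)), IsCompact C ∧
      ∀ t x v, 0 ≤ t → t ≤ t₁ → f (t, x, v) ≠ 0 → (x, v) ∈ C)
    (P₀ : ℝ) (hP₀ : ∀ x v, f (0, x, v) ≠ 0 → en v ≤ P₀)
    (e : ℝ → ℝ) (he : Continuous e)
    (hpow : ∀ t x v, 0 < t → t < T → f (t, x, v) ≠ 0 → vel v ⬝ᵥ E (t, x) ≤ e t) :
    ∀ t x v, 0 ≤ t → t < T → f (t, x, v) ≠ 0 → en v ≤ P₀ + ∫ s in (0 : ℝ)..t, e s := by
  intro t x v ht htT hf
  refine le_of_forall_pos_le_add (fun η hη => ?_)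
  have h1t : (0 : ℝ) < 1 + t := by linarith
  set δ : ℝ := η / (1 + t) with hδdef
  have hδ : 0 < δ := div_pos hη h1t
  have hA : ∀ r, HasDerivAt (fun r : ℝ => P₀ + δ + ∫ s in (0 : ℝ)..r, (e s + δ)) (e r + δ) r :=
    fun r => (((he.add continuous_const).integral_hasStrictDerivAt 0 r).hasDerivAt).const_add _
  have h := frontier T f E B hcont hdiff htr hsupp
    (fun r : ℝ => P₀ + δ + ∫ s in (0 : ℝ)..r, (e s + δ)) (fun r => e r + δ) hA
    (fun x v hx => by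
      have := hP₀ x v hx
      simp only [intervalIntegral.integral_same, add_zero]
      linarith)
    (fun t x v h1 h2 h3 _ => by
      have := hpow t x v h1 h2 h3
      linarith) t x v ht htT hf
  have hint : ∫ s in (0 : ℝ)..t, (e s + δ) = (∫ s in (0 : ℝ)..t, e s) + t * δ := by
    rw [intervalIntegral.integral_add (he.intervalIntegrable _ _)
      (continuous_const.intervalIntegrable _ _)]
    simp
  simp only [hint] at h
  have h2 : δ * (1 + t) = η := div_mul_cancel₀ _ h1t.ne'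
  nlinarith

/-- The same with a majorant that is only continuous on `[0, T)`, and with `|E|` allowed in place of
the power. -/
theorem support_bound_on (T : ℝ) (f : ℝ × (Fin 3 → ℝ) × (Fin 3 → ℝ) → ℝ)
    (E B : ℝ × (Fin 3 → ℝ) → Fin 3 → ℝ)
    (hcont : ContinuousOn f (Ico 0 T ×ˢ univ))
    (hdiff : ∀ t x v, 0 < t → t < T → DifferentiableAt ℝ f (t, x, v))
    (htr : ∀ t x v, 0 < t → t < T →
      fderiv ℝ f (t, x, v) (1, vel v, E (t, x) + vel v ⨯₃ B (t, x)) = 0)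
    (hsupp : ∀ t₁, t₁ < T → ∃ C : Set ((Fin 3 → ℝ) × (Fin 3 → ℝ)), IsCompact C ∧
      ∀ t x v, 0 ≤ t → t ≤ t₁ → f (t, x, v) ≠ 0 → (x, v) ∈ C)
    (P₀ : ℝ) (hP₀ : ∀ x v, f (0, x, v) ≠ 0 → en v ≤ P₀)
    (e : ℝ → ℝ) (he : ContinuousOn e (Ico 0 T))
    (hpow : ∀ t x v, 0 < t → t < T → f (t, x, v) ≠ 0 →
      vel v ⬝ᵥ E (t, x) ≤ e t ∨ Real.sqrt (E (t, x) ⬝ᵥ E (t, x)) ≤ e t) :
    ∀ t x v, 0 ≤ t → t < T → f (t, x, v) ≠ 0 → en v ≤ P₀ + ∫ s in (0 : ℝ)..t, e s := by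
  intro t x v ht htT hf
  set t₂ : ℝ := (t + T) / 2 with ht₂
  have h1 : t < t₂ := by rw [ht₂]; linarith
  have h2 : t₂ < T := by rw [ht₂]; linarith
  set e' : ℝ → ℝ := fun s => e (max 0 (min s t₂)) with he'
  have hcl : ∀ s : ℝ, max 0 (min s t₂) ∈ Ico 0 T := fun s =>
    ⟨le_max_left _ _, max_lt (by linarith) (lt_of_le_of_lt (min_le_right _ _) h2)⟩
  have hce' : Continuous e' :=
    he.comp_continuous (continuous_const.max (continuous_id.min continuous_const)) hcl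
  have heq : ∀ s, 0 ≤ s → s ≤ t₂ → e' s = e s := by
    intro s hs0 hs2
    simp only [he', min_eq_left hs2, max_eq_right hs0]
  have hsub : Ico 0 t₂ ×ˢ (univ : Set ((Fin 3 → ℝ) × (Fin 3 → ℝ))) ⊆ Ico 0 T ×ˢ univ := by
    rintro ⟨s, y⟩ ⟨⟨a, b⟩, -⟩
    exact ⟨⟨a, b.trans h2⟩, mem_univ _⟩
  have h := support_bound t₂ f E B (hcont.mono hsub)
    (fun s x v a b => hdiff s x v a (b.trans h2)) (fun s x v a b => htr s x v a (b.trans h2))
    (fun t₁ a => hsupp t₁ (a.trans h2)) P₀ hP₀ e' hce'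
    (fun s x v a b c => by
      rw [heq s a.le b.le]
      rcases hpow s x v a (b.trans h2) c with h | h
      · exact h
      · exact (vel_dot_le v _).trans h) t x v ht h1 hf
  have hint : ∫ s in (0 : ℝ)..t, e' s = ∫ s in (0 : ℝ)..t, e s := by
    apply intervalIntegral.integral_congr
    intro s hs
    rw [uIcc_of_le ht] at hs
    exact heq s hs.1 (hs.2.trans h1.le)
  rw [hint] at h
  exact h

end Vale.Agent.Lib.P107
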